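import Vale.Agent.Lib.P199.Solvable

/-!
Kurosh's problem for division rings: positive answer for subalgebras generated by an
elementary amenable group of units.
-/

namespace Vale.Agent.Results.P199.ElemAmenableUnits

open Vale.Agent.Lib.P199

universe u v

/-- Day's class of elementary amenable groups (inside the universe `u`): the smallest class of
groups which contains all finite groups and all abelian groups and is closed under subgroups
(injective homomorphisms), quotients (surjective homomorphisms), group extensions and
directed unions of subgroups. -/
inductive IsElemAmenable : (G : Type u) → [Group G] → Prop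
  | of_finite (G : Type u) [Group G] [Finite G] : IsElemAmenable G
  | of_comm (G : Type u) [Group G] (h : ∀ a b : G, a * b = b * a) : IsElemAmenable G
  | of_injective (H G : Type u) [Group H] [Group G] (f : H →* G)
      (hf : Function.Injective f) : IsElemAmenable G → IsElemAmenable H
  | of_surjective (G Q : Type u) [Group G] [Group Q] (f : G →* Q)
      (hf : Function.Surjective f) : IsElemAmenable G → IsElemAmenable Q
  | of_extension (G Q : Type u) [Group G] [Group Q] (f : G →* Q) :
      IsElemAmenable f.ker → IsElemAmenable Q → IsElemAmenable G
  | of_directed (G : Type u) [Group G] (ι : Type u) (H : ι → Subgroup G)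
      (hd : Directed (· ≤ ·) H) (hU : ∀ g : G, ∃ i, g ∈ H i) :
      (∀ i, IsElemAmenable (H i)) → IsElemAmenable G

theorem extGood_of_isElemAmenable {k : Type v} {D : Type u} [Field k] [DivisionRing D]
    [Algebra k D] [Algebra.IsAlgebraic k D] (G : Type u) [Group G] (h : IsElemAmenable G) :
    ExtGood k D G := by
  induction h with
  | of_finite G => exact extGood_of_finite G
  | of_comm G h => exact extGood_of_comm G h
  | of_injective H G f hf _ ih => exact ExtGood.of_injective f hf ih
  | of_surjective G Q f hf _ ih => exact ExtGood.of_surjective f hf ih
  | of_extension G Q f _ _ ih1 ih2 => exact ExtGood.of_extension f ih1 ih2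
  | of_directed G ι H hd hU _ ih => exact ExtGood.of_directed H hd hU ih

/-- Let `D` be a division ring which is algebraic over a central subfield `k` (for instance its
centre).  If `G` is an elementary amenable subgroup of the unit group of `D`, then every finite
subset `T` of the `k`-subalgebra generated by `G` generates a finite-dimensional
`k`-subalgebra. -/
theorem result {k : Type v} {D : Type u} [Field k] [DivisionRing D] [Algebra k D]
    [Algebra.IsAlgebraic k D] (G : Subgroup Dˣ) (hG : IsElemAmenable G)
    (T : Set D) (hT : T.Finite) (hTG : T ⊆ Algebra.adjoin k (Units.val '' (G : Set Dˣ))) :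
    FiniteDimensional k (Algebra.adjoin k T) := by
  have h1 := (extGood_of_isElemAmenable (k := k) (D := D) G hG).locFin_range G.subtype
  rw [Subgroup.range_subtype] at h1
  have h2 := h1 hT.toFinset (by rw [Set.Finite.coe_toFinset]; exact hTG)
  rwa [Set.Finite.coe_toFinset] at h2

end Vale.Agent.Results.P199.ElemAmenableUnits
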