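import Vale.Agent.Lib.P199.LieChain

/-!
Kurosh's problem for division rings: positive answer for subalgebras generated by a solvable
Lie subalgebra (with respect to the commutator).
-/

namespace Vale.Agent.Results.P199.SolvableLie

open Vale.Agent.Lib.P199

/-- Let `D` be a division ring which is algebraic over a central subfield `k` (for instance its
centre).  Let `L 0 ⊇ L 1 ⊇ ... ⊇ L N = 0` be `k`-subspaces of `D` such that all commutators
`x y - y x` of elements of `L i` lie in `L (i + 1)`; that is, `L 0` is a solvable Lie subalgebra of
`D` and the `L i` contain its derived series.  Then every finite subset `T` of the associative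
`k`-subalgebra generated by `L 0` generates a finite-dimensional `k`-subalgebra. -/
theorem result {k D : Type*} [Field k] [DivisionRing D] [Algebra k D] [Algebra.IsAlgebraic k D]
    (N : ℕ) (L : ℕ → Submodule k D) (hanti : ∀ i, L (i + 1) ≤ L i)
    (hcomm : ∀ i, ∀ x ∈ L i, ∀ y ∈ L i, x * y - y * x ∈ L (i + 1)) (hN : L N = ⊥)
    (T : Set D) (hT : T.Finite) (hTL : T ⊆ Algebra.adjoin k (L 0 : Set D)) :
    FiniteDimensional k (Algebra.adjoin k T) := by
  have h1 : LocFin (Algebra.adjoin k (L 0 : Set D)) :=
    locFin_adjoin_of_chain (fun x => (Algebra.IsAlgebraic.isAlgebraic x).isIntegral) N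
      (fun i => (L i : Set D)) (fun i => hanti i) hcomm (by
        intro x hx
        have : x ∈ L N := hx
        rw [hN] at this
        simpa using this)
  have h2 := h1 hT.toFinset (by rw [Set.Finite.coe_toFinset]; exact hTL)
  rwa [Set.Finite.coe_toFinset] at h2

end Vale.Agent.Results.P199.SolvableLie
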