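import Vale.Agent.Lib.P199.Solvable

/-!
Kurosh's problem for division rings: positive answer for finite sets generating a solvable
multiplicative group.
-/

namespace Vale.Agent.Results.P199.SolvableUnits

open Vale.Agent.Lib.P199

/-- Let `D` be a division ring algebraic over its centre `F`, and let `S` be a finite subset of
`D` such that the nonzero elements of `S` generate a solvable subgroup of the unit group.
Then `F[S] = F(S)` is finite-dimensional over `F`. -/
theorem result (D : Type*) [DivisionRing D] [Algebra.IsAlgebraic (Subring.center D) D]
    (S : Set D) (hS : S.Finite)
    (hsolv : Group.IsSolvable (Subgroup.closure {u : Dˣ | (u : D) ∈ S})) :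
    FiniteDimensional (Subring.center D) (Algebra.adjoin (Subring.center D) S) :=
  finiteDimensional_adjoin_of_extGood S hS (extGood_of_isSolvable _)

end Vale.Agent.Results.P199.SolvableUnits
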